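import Vale.Agent.P192.R2.H360.R.Defs

set_option linter.all false

/-! Machines over a group: site cuts (row R3). -/

namespace Vale.Agent.P192.R2.H43

open Vale.Agent.P192 Vale.Agent.P192.H437 Vale.Agent.P192.H593 Vale.Agent.P192.R2.H577
open Vale.Agent.P192.R2.H360.R
open scoped Pointwise

universe u v

section

variable {G : Type v} [Group G] {S : Set G} {H A Q : Type} [Group H] [DecidableEq H]
  {T : Finset H} {X : Type u} [MulAction G X] {hd : X → H} {tp : X → H → A} {st : X → Q}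

theorem word (hL : Loc S T X hd tp st) (w : List G) (hw : ∀ s ∈ w, s ∈ S ∨ s⁻¹ ∈ S) (z : X) :
    (hd z)⁻¹ * hd (w.prod • z) ∈ T ^ w.length ∧
      ∀ q, tp (w.prod • z) q ≠ tp z q → (hd z)⁻¹ * q ∈ T ^ w.length := by
  induction w with
  | nil =>
    refine ⟨by simp, fun q hq => absurd (by simp) hq⟩
  | cons s w ih =>
    obtain ⟨h1, h2⟩ := ih fun t ht => hw t (by simp [ht])
    have hs := hw s (by simp)
    rw [List.prod_cons, mul_smul, List.length_cons, pow_succ]
    constructor
    · have h3 := Finset.mul_mem_mul h1 (hL.move (w.prod • z) s hs)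
      have e : (hd z)⁻¹ * hd (w.prod • z) * ((hd (w.prod • z))⁻¹ * hd (s • w.prod • z)) =
          (hd z)⁻¹ * hd (s • w.prod • z) := by group
      rwa [e] at h3
    · intro q hq
      by_cases h : tp (s • w.prod • z) q = tp (w.prod • z) q
      · have h4 := h2 q (by rwa [h] at hq)
        have h5 := Finset.mul_mem_mul h4 hL.one
        rwa [mul_one] at h5
      · have h3 := Finset.mul_mem_mul h1 (hL.write (w.prod • z) s q hs h)
        have e : (hd z)⁻¹ * hd (w.prod • z) * ((hd (w.prod • z))⁻¹ * q) = (hd z)⁻¹ * q := by group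
        rwa [e] at h3

theorem fb_write (hL : Loc S T X hd tp st) {x z : X} {p : H}
    (hz : z ∈ fb S {z | tp z p = tp x p}) : (hd z)⁻¹ * p ∈ T := by
  obtain ⟨s, hs, h⟩ := hz
  refine hL.write z s p hs fun e => ?_
  rcases h with ⟨h1, h2⟩ | ⟨h1, h2⟩
  · exact h2 (e.trans h1)
  · exact h1 (e.symm.trans h2)

end

theorem r3 : R1.{u, v} → R3.{u, v} := by
  intro hR1 G _ _ hG S hSf hS H A Q _ _ _ _ T
  obtain ⟨R, hR⟩ := hR1 G hG S hSf hS
  refine ⟨(R + 1) * Nat.card (T × Q × ((T ^ (R + 1) : Finset H) → A)), ?_⟩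
  intro X _ _ hd tp st hL x y p hp
  obtain ⟨D, hx, hy, hfb, hlk⟩ := hR X {z | tp z p = tp x p} x y rfl fun h => hp (Eq.symm h)
  have hw : ∀ z ∈ fb S D, (hd z)⁻¹ * p ∈ T := fun z hz => fb_write hL (hfb hz)
  have htp : ∀ a ∈ fb S D, ∀ b ∈ fb S D, ∀ q, tp a q ≠ tp b q → p⁻¹ * q ∈ T ^ (R + 1) := by
    intro a ha b hb
    have h := hlk a ha b hb
    induction h with
    | refl => intro q hq; exact absurd rfl hq
    | @tail b c _ hst ih =>
      intro q hq
      by_cases hbq : tp a q = tp b q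
      · obtain ⟨hb', hc', w, hw1, hw2, rfl⟩ := hst
        have h1 := (word hL w hw1 b).2 q (fun e => hq (hbq.trans e.symm))
        have h2 := Finset.pow_subset_pow_right hL.one hw2 h1
        have h3 := hL.inv _ (hw b hb')
        rw [mul_inv_rev, inv_inv] at h3
        have h4 := Finset.mul_mem_mul h3 h2
        rw [← pow_succ'] at h4
        have e : p⁻¹ * hd b * ((hd b)⁻¹ * q) = p⁻¹ * q := by group
        rwa [e] at h4
      · exact ih hst.1 q hbq
  let Φ : fb S D → T × Q × ((T ^ (R + 1) : Finset H) → A) :=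
    fun z => (⟨(hd z)⁻¹ * p, hw z z.2⟩, st z, fun τ => tp z (p * τ))
  have hΦ : Function.Injective Φ := by
    rintro ⟨z, hz⟩ ⟨z', hz'⟩ he
    have e1 : (hd z)⁻¹ * p = (hd z')⁻¹ * p := congrArg (fun q => (q.1 : H)) he
    have e2 : st z = st z' := congrArg (fun q => q.2.1) he
    have e3 : ∀ τ : (T ^ (R + 1) : Finset H), tp z (p * τ) = tp z' (p * τ) :=
      fun τ => congrFun (congrArg (fun q => q.2.2) he) τ
    refine Subtype.ext (hL.inj z z' (inv_injective (mul_right_cancel e1)) e2 ?_)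
    funext q
    by_contra hq
    have h1 := htp z hz z' hz' q hq
    have h2 := e3 ⟨_, h1⟩
    rw [mul_inv_cancel_left] at h2
    exact hq h2
  have hcard : (fb S D).encard ≤ (Nat.card (T × Q × ((T ^ (R + 1) : Finset H) → A)) : ℕ∞) := by
    have h1 : (fb S D).encard = ENat.card (fb S D) := rfl
    rw [h1, ← ENat.card_eq_coe_natCard]
    exact ENat.card_le_card_of_injective hΦ
  have : Nonempty X := ⟨x⟩
  have hc := sch_connected (X := X) hS
  refine ⟨D, hx, hy, hcard.trans ?_, hw, fun a ha b hb => ?_⟩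
  · exact_mod_cast Nat.le_mul_of_pos_left _ (Nat.succ_pos R)
  · have h1 : lnk (sch S X) R (fb S D) a b :=
      Relation.ReflTransGen.mono (fun a b hab => ⟨hab.1, hab.2.1, (hop_iff hc).1 hab.2.2⟩) _ _
        (hlk a ha b hb)
    rw [hop_iff hc]
    refine (lnk_dist hc hcard ha h1).trans ?_
    exact Nat.mul_le_mul_right _ (Nat.le_succ R)

end Vale.Agent.P192.R2.H43
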