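import Vale.Agent.P192.R2.H360.R.Defs2

set_option linter.all false

/-! Machines over a group: row R7. -/

namespace Vale.Agent.P192.R2.H43

open Vale.Agent.P192 Vale.Agent.P192.H437 Vale.Agent.P192.H593 Vale.Agent.P192.R2.H577
open Vale.Agent.P192.R2.H360.R
open scoped Pointwise

theorem short_hop {G X : Type} [Group G] [MulAction G X] (S : Set G)
    (hS : Subgroup.closure S = ⊤) (x : X) (K : ℕ) (h : (MulAction.orbit G x).encard ≤ K) (g : G) :
    hop S K x (g • x) := by
  set rel : X → X → Prop := fun a b => ∃ s, (s ∈ S ∨ s⁻¹ ∈ S) ∧ s • a = b with hrel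
  have h1 : {z | Relation.ReflTransGen rel x z} ⊆ MulAction.orbit G x := by
    intro z hz
    have hz' : Relation.ReflTransGen rel x z := hz
    induction hz' with
    | refl => exact MulAction.mem_orbit_self x
    | @tail b c hb hst ih =>
      obtain ⟨s, -, rfl⟩ := hst
      exact MulAction.mem_orbit_of_mem_orbit s (ih hb)
  have h2 := reach_lev rel x K ((Set.encard_le_encard h1).trans h)
  have h3 : ∀ n, ∀ z ∈ lev rel x n, hop S n x z := by
    intro n
    induction n with
    | zero =>
      intro z hz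
      have hz' : z = x := hz
      rw [hz']
      exact ⟨[], by simp, by simp, by simp⟩
    | succ n ih =>
      rintro z (hz | ⟨w, hw, s, hs, rfl⟩)
      · exact hop_le (Nat.le_succ n) (ih z hz)
      · obtain ⟨W, h1, h2, rfl⟩ := ih w hw
        refine ⟨s :: W, ?_, ?_, ?_⟩
        · intro t ht
          rcases List.mem_cons.1 ht with rfl | ht
          · exact hs
          · exact h1 t ht
        · rw [List.length_cons]; omega
        · rw [List.prod_cons, mul_smul]
  refine h3 K _ (h2 ?_)
  obtain ⟨W, hW, rfl⟩ := exists_list S hS g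
  have key : ∀ W : List G, (∀ s ∈ W, s ∈ S ∨ s⁻¹ ∈ S) → Relation.ReflTransGen rel x (W.prod • x) := by
    intro W hW
    induction W with
    | nil => simpa using Relation.ReflTransGen.refl
    | cons s W ih =>
      rw [List.prod_cons, mul_smul]
      exact (ih fun t ht => hW t (by simp [ht])).tail ⟨s, hW s (by simp), rfl⟩
  exact key W hW

section

variable {H A Q : Type} [Group H] [DecidableEq H] {G : Type} [Group G] {S : Set G}
    {T : Finset H} [MulAction G (Cf H A Q)]

theorem sim (hM : MA (H := H) (A := A) (Q := Q) G S T) {l : ℕ} {z z0 : Cf H A Q}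
    (hh : z0.2.1 = z.2.1) (hs : z0.2.2 = z.2.2)
    (ha : ∀ p, z.2.1⁻¹ * p ∈ T ^ l → z0.1 p = z.1 p) (W : List G)
    (hW : ∀ s ∈ W, s ∈ S ∨ s⁻¹ ∈ S) (hl : W.length ≤ l) :
    (W.prod • z0).2.1 = (W.prod • z).2.1 ∧ (W.prod • z0).2.2 = (W.prod • z).2.2 ∧
      z.2.1⁻¹ * (W.prod • z).2.1 ∈ T ^ W.length ∧
      (∀ p, z.2.1⁻¹ * p ∈ T ^ l → (W.prod • z0).1 p = (W.prod • z).1 p) ∧
      (∀ p, (W.prod • z).1 p ≠ z.1 p → z.2.1⁻¹ * p ∈ T ^ W.length) ∧
      (∀ p, (W.prod • z0).1 p ≠ z0.1 p → z.2.1⁻¹ * p ∈ T ^ W.length) := by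
  induction W with
  | nil =>
    simp only [List.prod_nil, one_smul, List.length_nil, pow_zero]
    exact ⟨hh, hs, by simp, ha, fun p hp => absurd rfl hp, fun p hp => absurd rfl hp⟩
  | cons s W ih =>
    rw [List.length_cons] at hl
    obtain ⟨h1, h2, h3, h4, h5, h6⟩ := ih (fun t ht => hW t (by simp [ht])) (by omega)
    have hm := hM.mach s (hW s (by simp))
    rw [List.prod_cons, mul_smul, mul_smul, List.length_cons]
    set u := W.prod • z with hu
    set u0 := W.prod • z0 with hu0
    have hwin : ∀ τ ∈ T, z.2.1⁻¹ * (u.2.1 * τ) ∈ T ^ (W.length + 1) := by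
      intro τ hτ
      have h := Finset.mul_mem_mul h3 hτ
      rwa [← pow_succ, mul_assoc] at h
    have hsub : T ^ (W.length + 1) ⊆ T ^ l := Finset.pow_subset_pow_right hM.one (by omega)
    have hsub' : T ^ W.length ⊆ T ^ (W.length + 1) :=
      Finset.pow_subset_pow_right hM.one (by omega)
    obtain ⟨e1, e2, e3⟩ := hm.2.2 u0 u h2 (by
      intro τ hτ
      rw [h1]
      exact h4 _ (hsub (hwin τ hτ)))
    have f1 : (s • u0).2.1 = (s • u).2.1 := by
      rw [h1] at e1
      exact mul_left_cancel e1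
    have hq : ∀ p, u.2.1⁻¹ * p ∈ T → z.2.1⁻¹ * p ∈ T ^ (W.length + 1) := by
      intro p hp
      have h := hwin _ hp
      rwa [mul_inv_cancel_left] at h
    refine ⟨f1, e2, ?_, ?_, ?_, ?_⟩
    · have h := Finset.mul_mem_mul h3 (hm.1 u)
      have e : z.2.1⁻¹ * u.2.1 * (u.2.1⁻¹ * (s • u).2.1) = z.2.1⁻¹ * (s • u).2.1 := by group
      rw [pow_succ]
      rwa [e] at h
    · intro p hp
      by_cases hpT : u.2.1⁻¹ * p ∈ T
      · have h := e3 _ hpT
        rw [h1, mul_inv_cancel_left] at h
        exact h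
      · have g1 : (s • u).1 p = u.1 p := by
          by_contra hne
          exact hpT (hm.2.1 u p hne)
        have g2 : (s • u0).1 p = u0.1 p := by
          by_contra hne
          have := hm.2.1 u0 p hne
          rw [h1] at this
          exact hpT this
        rw [g1, g2]
        exact h4 p hp
    · intro p hp
      by_cases h : (s • u).1 p = u.1 p
      · exact hsub' (h5 p (by rwa [h] at hp))
      · exact hq p (hm.2.1 u p h)
    · intro p hp
      by_cases h : (s • u0).1 p = u0.1 p
      · exact hsub' (h6 p (by rwa [h] at hp))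
      · have := hm.2.1 u0 p h
        rw [h1] at this
        exact hq p this

end

theorem r7 : R7 := by
  intro hR6 H _ _ hH A Q _ _ a0 G _ _ hG S T _ hM D
  classical
  obtain ⟨l6, hl6⟩ := hR6 H hH A Q a0 G hG S T hM D
  refine ⟨D + l6 + 3, by omega, ?_⟩
  intro z hz
  set l := D + l6 + 3 with hl
  let z0 : Cf H A Q := (fun p => if z.2.1⁻¹ * p ∈ T ^ D then z.1 p else a0, z.2.1, z.2.2)
  have hD : T ^ D ⊆ T ^ l := Finset.pow_subset_pow_right hM.one (by omega)
  have hl6' : T ^ l6 ⊆ T ^ l := Finset.pow_subset_pow_right hM.one (by omega)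
  have ha : ∀ p, z.2.1⁻¹ * p ∈ T ^ l → z0.1 p = z.1 p := by
    intro p hp
    by_cases h : z.2.1⁻¹ * p ∈ T ^ D
    · exact if_pos h
    · have h1 : z.1 p = a0 := by
        by_contra hne
        exact h (hz p hne hp)
      rw [h1]
      exact if_neg h
  have hz0 : ∀ p, z0.1 p ≠ a0 → z.2.1⁻¹ * p ∈ T ^ D := by
    intro p hp
    by_contra h
    exact hp (if_neg h)
  have hsim := fun W hW hl => sim hM (l := l) (z := z) (z0 := z0) rfl rfl ha W hW hl
  rcases hl6 z0 hz0 with hsmall | ⟨w, ⟨W, hW, hWl, rfl⟩, p, hp1, hp2⟩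
  · left
    -- words with the same value on `z0` have the same value on `z`
    have hcmp : ∀ W W' : List G, (∀ s ∈ W, s ∈ S ∨ s⁻¹ ∈ S) → (∀ s ∈ W', s ∈ S ∨ s⁻¹ ∈ S) →
        W.length ≤ l → W'.length ≤ l → W.prod • z0 = W'.prod • z0 →
        W.prod • z = W'.prod • z := by
      intro W W' hW hW' hWl hWl' he
      obtain ⟨h1, h2, -, h4, h5, -⟩ := hsim W hW hWl
      obtain ⟨k1, k2, -, k4, k5, -⟩ := hsim W' hW' hWl'
      have e1 : (W.prod • z).2.1 = (W'.prod • z).2.1 := by rw [← h1, ← k1, he]
      have e2 : (W.prod • z).2.2 = (W'.prod • z).2.2 := by rw [← h2, ← k2, he]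
      have e3 : (W.prod • z).1 = (W'.prod • z).1 := by
        funext p
        by_cases hp : z.2.1⁻¹ * p ∈ T ^ l
        · rw [← h4 p hp, ← k4 p hp, he]
        · have g1 : (W.prod • z).1 p = z.1 p := by
            by_contra hne
            exact hp (Finset.pow_subset_pow_right hM.one hWl (h5 p hne))
          have g2 : (W'.prod • z).1 p = z.1 p := by
            by_contra hne
            exact hp (Finset.pow_subset_pow_right hM.one hWl' (k5 p hne))
          rw [g1, g2]
      exact Prod.ext e3 (Prod.ext e1 e2)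
    choose V hV1 hV2 hV3 using fun g : G => short_hop S hM.gen z0 l6 hsmall g
    -- `V g` is a short word with `(V g).prod • z0 = g • z0`
    have key : ∀ L : List G, (∀ s ∈ L, s ∈ S ∨ s⁻¹ ∈ S) → ∀ W : List G,
        (∀ s ∈ W, s ∈ S ∨ s⁻¹ ∈ S) → W.length ≤ l6 → L.prod • z0 = W.prod • z0 →
        L.prod • z = W.prod • z := by
      intro L hL
      induction L with
      | nil =>
        intro W hW hWl he
        exact hcmp [] W (by simp) hW (by simp) (by omega) he
      | cons s L ih =>
        intro W hW hWl he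
        have h1 := ih (fun t ht => hL t (by simp [ht])) (V L.prod) (hV1 _) (hV2 _) (hV3 _).symm
        have h2 := hcmp (s :: V L.prod) W (by
          intro t ht
          rcases List.mem_cons.1 ht with rfl | ht
          · exact hL _ (by simp)
          · exact hV1 _ t ht) hW (by
            rw [List.length_cons]
            have := hV2 L.prod
            omega) (by omega) (by
            rw [List.prod_cons, mul_smul, hV3, ← mul_smul, ← List.prod_cons]
            exact he)
        rw [List.prod_cons, mul_smul, h1, ← h2, List.prod_cons, mul_smul]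
    have hsub : MulAction.orbit G z ⊆
        (fun q : Cf H A Q => (V (Classical.epsilon fun g : G => g • z0 = q)).prod • z) ''
          MulAction.orbit G z0 := by
      rintro _ ⟨g, rfl⟩
      refine ⟨g • z0, ⟨g, rfl⟩, ?_⟩
      have he : (Classical.epsilon fun g' : G => g' • z0 = g • z0) • z0 = g • z0 :=
        Classical.epsilon_spec (p := fun g' : G => g' • z0 = g • z0) ⟨g, rfl⟩
      obtain ⟨L, hL, hLg⟩ := exists_list S hM.gen g
      change (V (Classical.epsilon fun g' : G => g' • z0 = g • z0)).prod • z = g • z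
      rw [← hLg]
      rw [← hLg] at he
      exact (key L hL _ (hV1 _) (hV2 _) (by rw [hV3, he])).symm
    refine (Set.encard_le_encard hsub).trans ((Set.encard_image_le _ _).trans (hsmall.trans ?_))
    exact_mod_cast (by omega : l6 ≤ l)
  · right
    obtain ⟨h1, h2, h3, h4, h5, h6⟩ := hsim W hW (by omega)
    have hp3 : z.2.1⁻¹ * p ∈ T ^ l := by
      by_cases h : (W.prod • z0).1 p = z0.1 p
      · exact hD (hz0 p (by rwa [← h]))
      · exact Finset.pow_subset_pow_right hM.one (by omega) (h6 p h)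
    refine ⟨W.prod • z, ⟨W.prod, rfl⟩, ?_, ?_, p, ?_, ?_, hp3⟩
    · exact Finset.pow_subset_pow_right hM.one (by omega) h3
    · exact fun q hq => Finset.pow_subset_pow_right hM.one (by omega) (h5 q hq)
    · rwa [← h4 p hp3]
    · rwa [← h1]

end Vale.Agent.P192.R2.H43
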